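import Vale.Agent.P161.Main
import Vale.Agent.P161.Exist

namespace Vale.Agent.Results.P161.IsingFactor

open Vale.Agent.P161

/-- On the `d`-regular tree, `d ≥ 3`, the free Ising measure (which exists and is unique) is a
factor of IID for every `β ≥ 0` with `tanh β < (d - 1) ^ (-1/2)`. -/
theorem result (V : Type) (G : SimpleGraph V) (d : ℕ) (hd : 3 ≤ d) (hT : G.IsTree)
    (hreg : ∀ v, (G.neighborSet v).ncard = d) (β : ℝ) (hβ : 0 ≤ β)
    (h : Real.tanh β < ((d : ℝ) - 1) ^ (-(1 / 2) : ℝ)) :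
    (∃! μ, IsFreeIsing G (Real.tanh β) μ) ∧
      ∀ μ, IsFreeIsing G (Real.tanh β) μ → IsFactorOfIID G μ := by
  have hG : ∀ v, (G.neighborSet v).Finite := fun v =>
    Set.finite_of_ncard_ne_zero (by rw [hreg]; omega)
  have h0 : 0 ≤ Real.tanh β := by
    rw [Real.tanh_eq_sinh_div_cosh]
    exact div_nonneg (Real.sinh_nonneg_iff.2 hβ) (Real.cosh_pos β).le
  have h1 := Real.tanh_lt_one β
  have h2 : (0 : ℝ) < d - 1 := by
    have : (3 : ℝ) ≤ d := by exact_mod_cast hd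
    linarith
  have h3 : Real.tanh β ^ 2 * (d - 1) < 1 := by
    have h4 := pow_lt_pow_left₀ h h0 two_ne_zero
    rw [← Real.rpow_natCast _ 2, ← Real.rpow_natCast _ 2, ← Real.rpow_mul h2.le] at h4
    norm_num at h4
    rw [Real.rpow_neg_one] at h4
    calc _ < ((d : ℝ) - 1)⁻¹ * (d - 1) := by gcongr
      _ = 1 := inv_mul_cancel₀ h2.ne'
  refine ⟨?_, fun μ hμ => isFactor hT hG hreg hμ h0 h1 h3⟩
  obtain ⟨μ, hμ⟩ := exists_ising hT h0 h1
  exact ⟨μ, hμ, fun ν hν => ising_unique hT.connected hG hν hμ⟩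

end Vale.Agent.Results.P161.IsingFactor
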